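import Vale.Agent.P224.PO.Cst
import Vale.Agent.P224.PO.LawNumO

/-!
Constants: the normalization of the flux and the ratios of the volumes, dimensions 30 to 36.
-/

namespace Vale.Agent.P224.R2.H979

open Vale.Agent.P224 Vale.Agent.P224.UE Vale.Agent.P224.PO

lemma KHn_30 : KH 30 = 2326762800 := by
  have := KH_rec (m := 28) (by norm_num)
  rw [KHn_28] at this
  norm_num at this ⊢
  exact this

lemma KHn_31 : KH 31 = (144115188075855872 / 9694845) / Real.pi := by
  have := KH_rec (m := 29) (by norm_num)
  rw [KHn_29] at this
  norm_num at this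
  rw [this]
  have := Real.pi_pos
  field_simp
  try norm_num

lemma KHn_32 : KH 32 = 9617286240 := by
  have := KH_rec (m := 30) (by norm_num)
  rw [KHn_30] at this
  norm_num at this ⊢
  exact this

lemma KHn_33 : KH 33 = (18446744073709551616 / 300540195) / Real.pi := by
  have := KH_rec (m := 31) (by norm_num)
  rw [KHn_31] at this
  norm_num at this
  rw [this]
  have := Real.pi_pos
  field_simp
  try norm_num

lemma KHn_34 : KH 34 = 39671305740 := by
  have := KH_rec (m := 32) (by norm_num)
  rw [KHn_32] at this
  norm_num at this ⊢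
  exact this

lemma KHn_35 : KH 35 = (147573952589676412928 / 583401555) / Real.pi := by
  have := KH_rec (m := 33) (by norm_num)
  rw [KHn_33] at this
  norm_num at this
  rw [this]
  have := Real.pi_pos
  field_simp
  try norm_num

lemma KHn_36 : KH 36 = 163352435400 := by
  have := KH_rec (m := 34) (by norm_num)
  rw [KHn_34] at this
  norm_num at this ⊢
  exact this

lemma eR_15 : evenRatio 15 = 62386327575 * Real.pi / 137438953472 := by
  rw [show (15 : ℕ) = 13 + 2 by norm_num, evenRatio_rec, eR_13]
  norm_num
  ring

lemma eR_16 : evenRatio 16 = 6678671 / 4685824 := by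
  rw [show (16 : ℕ) = 14 + 2 by norm_num, evenRatio_rec, eR_14]
  norm_num

lemma eR_17 : evenRatio 17 = 63821213109225 * Real.pi / 140737488355328 := by
  rw [show (17 : ℕ) = 15 + 2 by norm_num, evenRatio_rec, eR_15]
  norm_num
  ring

lemma eR_18 : evenRatio 18 = 41250615 / 28966912 := by
  rw [show (18 : ℕ) = 16 + 2 by norm_num, evenRatio_rec, eR_16]
  norm_num

end Vale.Agent.P224.R2.H979
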