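import Vale.Agent.P224.R2.H979.C18.Main
import Vale.Agent.P224.R2.H979.C20.Main
import Vale.Agent.P224.R2.H979.C22.Main
import Vale.Agent.P224.R2.H979.C24.Main
import Vale.Agent.P224.R2.H979.C26.Main
import Vale.Agent.P224.R2.H979.C28.Main
import Vale.Agent.P224.R2.H979.C30.Main
import Vale.Agent.P224.R2.H979.C32.Main
import Vale.Agent.P224.R2.H979.C34.Main
import Vale.Agent.P224.R2.H389.Far
import Vale.Agent.P224.RIG.Least

/-!
**The far range in the even dimensions 18, ..., 34**: a closed minimal hypersurface of volume at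
most the least Clifford volume has `|∫ N| < 3 / 100 * volume`.
-/

namespace Vale.Agent.P224.R2.H979

open MeasureTheory Set Filter Function Module Vale.Agent.P224 Vale.Agent.P224.UE
open scoped Topology RealInnerProductSpace ENNReal ContDiff Manifold

section

variable {V W M : Type*} [NormedAddCommGroup V] [InnerProductSpace ℝ V] [FiniteDimensional ℝ V]
  [NormedAddCommGroup W] [InnerProductSpace ℝ W] [FiniteDimensional ℝ W]
  [TopologicalSpace M] [ChartedSpace V M]
  [MeasurableSpace V] [BorelSpace V] [MeasurableSpace M] [BorelSpace M]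
  [IsManifold 𝓘(ℝ, V) ∞ M] [CompactSpace M] [T2Space M] [ConnectedSpace M]
  [MeasurableSpace W] [BorelSpace W]

/-- The far range from the range of a certificate and the far theorem `|e| < 1 / 8`. -/
theorem thin_of (hm : 2 ≤ finrank ℝ V) (hW : finrank ℝ W = finrank ℝ V + 2)
    {F : M → W} (hF : SphImm V F) (hmin : ∀ x n, IsUnitNormal V F x n → meanCurv V F x n = 0)
    (hng : ¬ ∃ a : W, a ≠ 0 ∧ ∀ x, ⟪F x, a⟫ = 0)
    {N : M → W} (hNs : ContMDiff 𝓘(ℝ, V) 𝓘(ℝ, W) ∞ N) (hN : ∀ x, IsUnitNormal V F x (N x))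
    (htop : ‖∫ x, N x ∂(volM V F)‖ ≤ sphereVol (finrank ℝ V))
    (hhi : (volM V F).real univ ≤ 14352 / 10000 * sphereVol (finrank ℝ V)) {ν : ℝ}
    (key : Injective F → 0 < (volM V F).real univ → ∀ e : W,
      (volM V F).real univ • e = ∫ x, N x ∂(volM V F) → ‖e‖ ≤ 1 / 8 → ‖e‖ < ν) :
    ‖∫ x, N x ∂(volM V F)‖ < ν * (volM V F).real univ := by
  have hfin : IsFiniteMeasure (volM V F) := isFiniteMeasure_volM hF
  have hS0 : 0 < sphereVol (finrank ℝ V) := sphereVol_pos' _
  have hinj : Injective F := by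
    by_contra hinj
    have h2 := TwoSide.two_le (by omega) hW hF hmin hinj
    linarith
  have hA : 0 < (volM V F).real univ := by
    have h1 := PU.U1413.mainU hm hW hF hmin hng
    have h2 := ENNReal.toReal_mono (measure_ne_top _ _) h1
    rw [ENNReal.toReal_ofReal (by positivity)] at h2
    have : 0 < 23153 / 16384 * sphereVol (finrank ℝ V) := by positivity
    exact lt_of_lt_of_le this h2
  set e : W := ((volM V F).real univ)⁻¹ • ∫ x, N x ∂(volM V F) with he
  have he' : (volM V F).real univ • e = ∫ x, N x ∂(volM V F) := by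
    rw [he, smul_smul, mul_inv_cancel₀ hA.ne', one_smul]
  have h1 := R2.H389.far hm hW hF hmin hng hNs hN htop he' hhi
  have h2 := key hinj hA e he' h1.le
  rw [← he', norm_smul, Real.norm_eq_abs, abs_of_pos hA]
  nlinarith

/-- **The far range, even dimensions from 18 to 34.** -/
theorem far_thin_even {k : ℕ} (h1 : 9 ≤ k) (h2 : k ≤ 17) (hV : finrank ℝ V = 2 * k)
    (hW : finrank ℝ W = finrank ℝ V + 2)
    {F : M → W} (hF : SphImm V F) (hmin : ∀ x n, IsUnitNormal V F x n → meanCurv V F x n = 0)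
    (hng : ¬ ∃ a : W, a ≠ 0 ∧ ∀ x, ⟪F x, a⟫ = 0)
    {N : M → W} (hNs : ContMDiff 𝓘(ℝ, V) 𝓘(ℝ, W) ∞ N) (hN : ∀ x, IsUnitNormal V F x (N x))
    (htop : ‖∫ x, N x ∂(volM V F)‖ ≤ sphereVol (finrank ℝ V))
    (hhi : (volM V F).real univ ≤ leastClifford (finrank ℝ V)) :
    ‖∫ x, N x ∂(volM V F)‖ < 3 / 100 * (volM V F).real univ := by
  have hS0 : 0 < sphereVol (finrank ℝ V) := sphereVol_pos' _
  interval_cases k <;> norm_num at hV
  · have hc := hhi
    rw [hV] at hc
    replace hc := hc.trans C18.clifford_le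
    refine thin_of (by omega) hW hF hmin hng hNs hN htop ?_ fun hinj hA e he hlt =>
      C18.far_unit hV hW hF hmin hNs hN hinj he hA hc hlt
    rw [hV] at hS0 ⊢
    linarith
  · have hc := hhi
    rw [hV] at hc
    replace hc := hc.trans C20.clifford_le
    refine thin_of (by omega) hW hF hmin hng hNs hN htop ?_ fun hinj hA e he hlt =>
      C20.far_unit hV hW hF hmin hNs hN hinj he hA hc hlt
    rw [hV] at hS0 ⊢
    linarith
  · have hc := hhi
    rw [hV] at hc
    replace hc := hc.trans C22.clifford_le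
    refine thin_of (by omega) hW hF hmin hng hNs hN htop ?_ fun hinj hA e he hlt =>
      C22.far_unit hV hW hF hmin hNs hN hinj he hA hc hlt
    rw [hV] at hS0 ⊢
    linarith
  · have hc := hhi
    rw [hV] at hc
    replace hc := hc.trans C24.clifford_le
    refine thin_of (by omega) hW hF hmin hng hNs hN htop ?_ fun hinj hA e he hlt =>
      C24.far_unit hV hW hF hmin hNs hN hinj he hA hc hlt
    rw [hV] at hS0 ⊢
    linarith
  · have hc := hhi
    rw [hV] at hc
    replace hc := hc.trans C26.clifford_le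
    refine thin_of (by omega) hW hF hmin hng hNs hN htop ?_ fun hinj hA e he hlt =>
      C26.far_unit hV hW hF hmin hNs hN hinj he hA hc hlt
    rw [hV] at hS0 ⊢
    linarith
  · have hc := hhi
    rw [hV] at hc
    replace hc := hc.trans C28.clifford_le
    refine thin_of (by omega) hW hF hmin hng hNs hN htop ?_ fun hinj hA e he hlt =>
      C28.far_unit hV hW hF hmin hNs hN hinj he hA hc hlt
    rw [hV] at hS0 ⊢
    linarith
  · have hc := hhi
    rw [hV] at hc
    replace hc := hc.trans C30.clifford_le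
    refine thin_of (by omega) hW hF hmin hng hNs hN htop ?_ fun hinj hA e he hlt =>
      C30.far_unit hV hW hF hmin hNs hN hinj he hA hc hlt
    rw [hV] at hS0 ⊢
    linarith
  · have hc := hhi
    rw [hV] at hc
    replace hc := hc.trans C32.clifford_le
    refine thin_of (by omega) hW hF hmin hng hNs hN htop ?_ fun hinj hA e he hlt =>
      C32.far_unit hV hW hF hmin hNs hN hinj he hA hc hlt
    rw [hV] at hS0 ⊢
    linarith
  · have hc := hhi
    rw [hV] at hc
    replace hc := hc.trans C34.clifford_le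
    refine thin_of (by omega) hW hF hmin hng hNs hN htop ?_ fun hinj hA e he hlt =>
      C34.far_unit hV hW hF hmin hNs hN hinj he hA hc hlt
    rw [hV] at hS0 ⊢
    linarith

/-- the same in the form of the final assembly -/
theorem far_thin_even_ratio {k : ℕ} (h1 : 9 ≤ k) (h2 : k ≤ 17) (hV : finrank ℝ V = 2 * k)
    (hW : finrank ℝ W = finrank ℝ V + 2)
    {F : M → W} (hF : SphImm V F) (hmin : ∀ x n, IsUnitNormal V F x n → meanCurv V F x n = 0)
    (hng : ¬ ∃ a : W, a ≠ 0 ∧ ∀ x, ⟪F x, a⟫ = 0)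
    {N : M → W} (hNs : ContMDiff 𝓘(ℝ, V) 𝓘(ℝ, W) ∞ N) (hN : ∀ x, IsUnitNormal V F x (N x))
    (htop : ‖∫ x, N x ∂(volM V F)‖ ≤ sphereVol (finrank ℝ V))
    (hhi : (volM V F).real univ ≤ evenRatio k * sphereVol (finrank ℝ V)) :
    ‖∫ x, N x ∂(volM V F)‖ < 3 / 100 * (volM V F).real univ := by
  refine far_thin_even h1 h2 hV hW hF hmin hng hNs hN htop (hhi.trans (le_of_eq ?_))
  rw [RIG.leastClifford_eq (by omega), hV, ← clifford_even (by omega)]
  congr 1
  omega

end

end Vale.Agent.P224.R2.H979
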