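import Vale.Agent.P224.PO.LvO
import Vale.Agent.P224.PO.ZO

/-!
The law of a static certificate with a unit vector in the direction of the mean normal (scaling
lemmas as in `R2/H178/LawU.lean`), derived from `EmbD.law_H` only.
-/

namespace Vale.Agent.P224.R2.H979

open MeasureTheory Set Filter Function Module Vale.Agent.P224 Vale.Agent.P224.UE
open Vale.Agent.P224.PO
open Vale.Agent.P224.SM2 hiding ker
open scoped Topology RealInnerProductSpace ENNReal ContDiff Manifold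

set_option linter.unusedSectionVars false

/-- the moments of the flux for the unit vector -/
noncomputable def momU (m : ℕ) (ν ρ : ℝ) (a b : ℕ) : ℝ :=
  match a, b with
  | 0, 0 => 1
  | 1, 0 => ν
  | 2, 0 => ρ
  | 0, 2 => (1 - ρ) / (m + 1)
  | _, _ => 0

lemma momM_scale (m : ℕ) (ν ρ : ℝ) (a b : ℕ) :
    momM m (ν ^ 2) (ν ^ 2 * ρ) a b = ν ^ (a + b) * momU m ν ρ a b := by
  rcases a with _ | _ | _ | a <;> rcases b with _ | _ | _ | b <;> simp [momM, momU] <;> ring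

/-- the normalized value of a term for the unit vector -/
noncomputable def VU (m : ℕ) (T : HTerm) (ν ρ : ℝ) : ℝ :=
  if T.sub m = true then 0 else (if T.fam = 0 then 1 else -1) * momU m ν ρ T.kn T.kx

/-- the normalized value of a sum of terms for the unit vector -/
noncomputable def hvalU (m : ℕ) (l : List (ℝ × HTerm)) (ν ρ : ℝ) : ℝ :=
  (l.map fun cT => cT.1 * VU m cT.2 ν ρ).sum

/-- the degree of a term in the fixed vector -/
def degT (T : HTerm) : ℕ :=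
  2 * T.l + T.k + T.d + T.j + (if T.fam = 2 ∨ T.fam = 4 ∨ T.fam = 5 then 1 else 0)

/-- the scaling of the fixed vector -/
noncomputable def sc (ν : ℝ) (d : R9) : R9 :=
  ![d 0, d 1, d 2, d 3, ν * d 4, ν * d 5, ν * d 6, ν * d 7, ν ^ 2 * d 8]

lemma dv_smul {E : Type*} [NormedAddCommGroup E] [InnerProductSpace ℝ E] (x N y w v : E)
    (ν : ℝ) : dv x N y w (ν • v) = sc ν (dv x N y w v) := by
  unfold dv sc
  ext i
  fin_cases i <;> simp [real_inner_smul_right]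
  rw [norm_smul, mul_pow, Real.norm_eq_abs, sq_abs]

lemma sw_sc (ν : ℝ) (d : R9) : sw9 (sc ν d) = sc ν (sw9 d) := by
  unfold sw9 sc
  ext i
  fin_cases i <;> simp

lemma sc_sc {ν : ℝ} (hν : ν ≠ 0) (d : R9) : sc ν⁻¹ (sc ν d) = d := by
  unfold sc
  ext i
  fin_cases i <;> simp <;> field_simp

lemma rowE_sc (k : Fin 6) (m s t p c n1 n2 x1 x2 E K fs ft fe ν g : ℝ) :
    rowE k m s t p c (ν * n1) (ν * n2) (ν * x1) (ν * x2) (ν ^ 2 * E) (g * ν * K) (g * ν * fs)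
      (g * ν * ft) (g * fe)
      = (if k = 2 ∨ k = 4 ∨ k = 5 then g * ν ^ 2 else g * ν)
        * rowE k m s t p c n1 n2 x1 x2 E K fs ft fe := by
  unfold rowE
  fin_cases k <;> simp <;> ring

lemma rowE_sc0 (k : Fin 6) (m s t p c n1 n2 x1 x2 E K fs ft ν : ℝ) :
    rowE k m s t p c (ν * n1) (ν * n2) (ν * x1) (ν * x2) (ν ^ 2 * E) K fs ft 0
      = (if k = 2 ∨ k = 4 ∨ k = 5 then ν else 1)
        * rowE k m s t p c n1 n2 x1 x2 E K fs ft 0 := by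
  unfold rowE
  fin_cases k <;> simp <;> ring

lemma rG_sc (k : Fin 6) (m : ℝ) (φ φ' : ℝ → ℝ) (i j : ℕ) (ν : ℝ) (d : R9) :
    rG k m φ φ' i j (sc ν d)
      = ν ^ (j + (if k = 2 ∨ k = 4 ∨ k = 5 then 1 else 0)) * rG k m φ φ' i j d := by
  have e0 : sc ν d 0 = d 0 := rfl
  have e1 : sc ν d 1 = d 1 := rfl
  have e2 : sc ν d 2 = d 2 := rfl
  have e3 : sc ν d 3 = d 3 := rfl
  have e4 : sc ν d 4 = ν * d 4 := rfl
  have e5 : sc ν d 5 = ν * d 5 := rfl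
  have e6 : sc ν d 6 = ν * d 6 := rfl
  have e7 : sc ν d 7 = ν * d 7 := rfl
  have e8 : sc ν d 8 = ν ^ 2 * d 8 := rfl
  unfold rG
  rw [e0, e1, e2, e3, e4, e5, e6, e7, e8]
  rcases j with _ | j
  · simp only [pow_zero, one_mul, Nat.cast_zero, zero_mul, zero_add]
    rw [rowE_sc0]
    split_ifs <;> simp
  · have h := rowE_sc k m (d 0) (d 1) (d 2) (d 3) (d 4) (d 5) (d 6) (d 7) (d 8)
      (d 6 ^ (j + 1) * (d 1 ^ i * φ (d 0))) (d 6 ^ (j + 1) * (d 1 ^ i * φ' (d 0)))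
      (d 6 ^ (j + 1) * (i * d 1 ^ (i - 1) * φ (d 0)))
      (((j + 1 : ℕ) : ℝ) * d 6 ^ j * (d 1 ^ i * φ (d 0))) ν (ν ^ j)
    have a1 : (ν * d 6) ^ (j + 1) * (d 1 ^ i * φ (d 0))
        = ν ^ j * ν * (d 6 ^ (j + 1) * (d 1 ^ i * φ (d 0))) := by ring
    have a2 : (ν * d 6) ^ (j + 1) * (d 1 ^ i * φ' (d 0))
        = ν ^ j * ν * (d 6 ^ (j + 1) * (d 1 ^ i * φ' (d 0))) := by ring
    have a3 : (ν * d 6) ^ (j + 1) * (i * d 1 ^ (i - 1) * φ (d 0))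
        = ν ^ j * ν * (d 6 ^ (j + 1) * (i * d 1 ^ (i - 1) * φ (d 0))) := by ring
    have a4 : ((j + 1 : ℕ) : ℝ) * (ν * d 6) ^ (j + 1 - 1) * (d 1 ^ i * φ (d 0))
        = ν ^ j * (((j + 1 : ℕ) : ℝ) * d 6 ^ j * (d 1 ^ i * φ (d 0))) := by
      rw [Nat.add_sub_cancel]
      ring
    rw [a1, a2, a3, a4, h, Nat.add_sub_cancel]
    split_ifs <;> ring

lemma F_sc (m : ℕ) (T : HTerm) (ν : ℝ) (d : R9) :
    T.F m (sc ν d) = ν ^ degT T * T.F m d := by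
  have e5 : sc ν d 5 = ν * d 5 := rfl
  have e7 : sc ν d 7 = ν * d 7 := rfl
  have e8 : sc ν d 8 = ν ^ 2 * d 8 := rfl
  unfold HTerm.F degT
  rw [e5, e7, e8, rG_sc]
  split_ifs <;> ring

/-- the scaled list of terms -/
noncomputable def lsc (ν : ℝ) (l : List (ℝ × HTerm)) : List (ℝ × HTerm) :=
  l.map fun cT => (cT.1 / ν ^ degT cT.2, cT.2)

lemma hsum_lsc {m : ℕ} {ν : ℝ} (hν : ν ≠ 0) (l : List (ℝ × HTerm)) (d : R9) :
    hsum m (lsc ν l) (sc ν d) = hsum m l d := by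
  unfold hsum lsc
  rw [List.map_map]
  congr 1
  refine List.map_congr_left fun cT _ => ?_
  have h : ν ^ degT cT.2 ≠ 0 := pow_ne_zero _ hν
  simp only [comp_apply, sw_sc, F_sc]
  field_simp

lemma V_sc {m : ℕ} {T : HTerm} (hT : T.ok m = true) {ν ρ : ℝ} :
    T.V m (ν ^ 2) (ν ^ 2 * ρ) = ν ^ degT T * VU m T ν ρ := by
  unfold HTerm.V VU
  by_cases hs : T.sub m = true
  · rw [if_pos hs, if_pos hs, mul_zero]
  · rw [if_neg hs, if_neg hs, momM_scale]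
    have hc : T.cri m = true := by
      unfold HTerm.ok at hT
      simpa [hs] using hT
    have hfam : T.fam = 0 ∨ T.fam = 3 ∨ T.fam = 4 := by
      unfold HTerm.cri at hc
      simp only [Bool.and_eq_true, Bool.or_eq_true, decide_eq_true_eq] at hc
      tauto
    have hdeg : degT T = 2 * T.l + (T.kn + T.kx) := by
      unfold degT HTerm.kn HTerm.kx
      rcases hfam with h | h | h <;> simp [h] <;> ring
    rw [hdeg]
    ring

lemma hval_lsc {m : ℕ} {ν ρ : ℝ} (hν : ν ≠ 0) {l : List (ℝ × HTerm)}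
    (hl : ∀ cT ∈ l, cT.2.ok m = true) :
    hval m (lsc ν l) (ν ^ 2) (ν ^ 2 * ρ) = hvalU m l ν ρ := by
  unfold hval hvalU lsc
  rw [List.map_map]
  congr 1
  refine List.map_congr_left fun cT hcT => ?_
  have h : ν ^ degT cT.2 ≠ 0 := pow_ne_zero _ hν
  simp only [comp_apply, V_sc (hl cT hcT)]
  field_simp

lemma W9_sc {ν : ℝ} (hν : ν ≠ 0) (b0 b1 b2 b3 b4 b5 b6 b7 b8 : ℝ) (d : R9) :
    W9 b0 b1 (b2 / ν) (b3 / ν ^ 2) (b4 / ν ^ 2) (b5 / ν ^ 2) (b6 / ν ^ 2) (b7 / ν)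
      (b8 / ν ^ 2) (sc ν d) = W9 b0 b1 b2 b3 b4 b5 b6 b7 b8 d := by
  have e3 : sc ν d 3 = d 3 := rfl
  have e4 : sc ν d 4 = ν * d 4 := rfl
  have e5 : sc ν d 5 = ν * d 5 := rfl
  have e6 : sc ν d 6 = ν * d 6 := rfl
  have e7 : sc ν d 7 = ν * d 7 := rfl
  have e8 : sc ν d 8 = ν ^ 2 * d 8 := rfl
  unfold W9
  rw [e3, e4, e5, e6, e7, e8]
  field_simp

/-- **The law of a static certificate for the direction of the mean normal.** -/
theorem law_U {X : Type*} [MeasurableSpace X] [Nonempty X] {E : Type*} [NormedAddCommGroup E]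
    [InnerProductSpace ℝ E] [FiniteDimensional ℝ E] [MeasurableSpace E] [BorelSpace E]
    {μ : Measure X} [IsFiniteMeasure μ] {F N : X → E} {B S : ℝ} {m : ℕ}
    (hE : EmbD μ m F N B S) (hm2 : 2 ≤ m) {v : E} (hv : ‖v‖ = 1) {ν : ℝ} (hν : 0 < ν)
    (he : (μ.real univ) • (ν • v) = ∫ x, N x ∂μ)
    (hA0 : 0 < μ.real univ)
    {b0 b1 b2 b3 b4 b5 b6 b7 b8 : ℝ} {l : List (ℝ × HTerm)}
    (hl : ∀ cT ∈ l, cT.2.ok m = true)
    (hpos : ∀ x N y w : E, ‖x‖ = 1 → ‖N‖ = 1 → ‖y‖ = 1 → ‖w‖ = 1 → ⟪x, N⟫ = 0 → ⟪y, w⟫ = 0 →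
      ⟪x, y⟫ < 1 → 0 ≤ W9 b0 b1 b2 b3 b4 b5 b6 b7 b8 (dv x N y w v)
        + hsum m l (dv x N y w v)) :
    ∃ ρ : ℝ, ν ^ 2 ≤ ρ ∧ ρ ≤ 1 ∧
      0 ≤ μ.real univ * (b0 + b3 + b2 * ν + b1 * ν ^ 2 + (b4 + b7 * ν) * ρ
          + (b5 + b6) * ν ^ 2 + b8 * ((1 - ρ) / (m + 1)))
        + KH m * S * hvalU m l ν ρ := by
  have hν0 : ν ≠ 0 := hν.ne'
  have hν2 : 0 < ν ^ 2 := by positivity
  obtain ⟨r, hr1, hr2, hr3⟩ := hE.law_H hm2 (e := ν • v) he hA0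
    (b0 := b0) (b1 := b1) (b2 := b2 / ν)
    (b3 := b3 / ν ^ 2) (b4 := b4 / ν ^ 2) (b5 := b5 / ν ^ 2) (b6 := b6 / ν ^ 2) (b7 := b7 / ν)
    (b8 := b8 / ν ^ 2) (l := lsc ν l)
    (fun cT hcT => by
      obtain ⟨c, hc, rfl⟩ := List.mem_map.1 hcT
      exact hl c hc)
    (fun x N y w h1 h2 h3 h4 h5 h6 h7 => by
      rw [dv_smul, W9_sc hν0, hsum_lsc hν0]
      exact hpos x N y w h1 h2 h3 h4 h5 h6 h7)
  have hn : ‖ν • v‖ ^ 2 = ν ^ 2 := by
    rw [norm_smul, hv, mul_one, Real.norm_eq_abs, sq_abs]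
  rw [hn] at hr1 hr2 hr3
  refine ⟨r / ν ^ 2, ?_, ?_, ?_⟩
  · rw [le_div_iff₀ hν2]
    nlinarith
  · rw [div_le_iff₀ hν2]
    linarith
  · have e1 : r = ν ^ 2 * (r / ν ^ 2) := by field_simp
    rw [e1, hval_lsc hν0 hl] at hr3
    refine hr3.trans (le_of_eq ?_)
    congr 2
    field_simp
    ring

end Vale.Agent.P224.R2.H979
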