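import Vale.Agent.P224.PO.ChkF
import Vale.Agent.P224.R2.H979.LawU

/-!
Nonnegativity on pair data with a **unit** vector from a verified identity: the Gram table and the
substitution of `PO/SubO.lean` with `⟪e, e⟫ = 1`.
-/

namespace Vale.Agent.P224.R2.H979

open Vale.Agent.P224.UE Vale.Agent.P224.POS Vale.Agent.P224.PO
open scoped RealInnerProductSpace

set_option linter.unusedSimpArgs false

noncomputable section

/-- the table of inner products, unit vector -/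
def tabU : List (List PE) :=
  [[.c 1, .c 0, .c 0, .c 0, .c 0, .c 0],
   [.c 0, .sub (.c 1) (.pow (.v 0) 2), .c 0, .v 1, .v 2, .v 4],
   [.c 0, .c 0, .pow (.v 0) 2, .sub (.c 0) (.v 2), .sub (.c 0) (.v 1), .v 5],
   [.c 0, .v 1, .sub (.c 0) (.v 2), .sub (.c 1) (.v 3), .c 0, .v 6],
   [.c 0, .v 2, .sub (.c 0) (.v 1), .c 0, .v 3, .v 7],
   [.c 0, .v 4, .v 5, .v 6, .v 7, .c 1]]

/-- the pair data as polynomials of the new data, unit vector -/
def sbU (i : ℕ) : PE :=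
  match i with
  | 0 => PE.v 0
  | 1 => PE.mul (PE.c 2) (PE.sub (PE.v 1) (PE.v 2))
  | 2 => PE.mul (PE.c 2) (PE.add (PE.v 1) (PE.v 2))
  | 3 => PE.sub (PE.c 1) (PE.mul (PE.c 2) (PE.v 3))
  | 4 => PE.add (PE.v 6) (PE.v 7)
  | 5 => PE.sub (PE.v 6) (PE.v 7)
  | 6 => PE.add (PE.v 4) (PE.v 5)
  | 7 => PE.sub (PE.v 4) (PE.v 5)
  | 8 => PE.c 1
  | i => PE.v i

lemma ev_sbU {d : R9} (h8 : d 8 = 1) (i : ℕ) : PE.ev (vg d) (sbU i) = vh d i := by
  match i with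
  | 0 => simp [sbU, vg, vh]
  | 1 => simp [sbU, vg, vh, ndat]; ring
  | 2 => simp [sbU, vg, vh, ndat]; ring
  | 3 => simp [sbU, vg, vh, ndat]; ring
  | 4 => simp [sbU, vg, vh, ndat]; ring
  | 5 => simp [sbU, vg, vh, ndat]; ring
  | 6 => simp [sbU, vg, vh, ndat]; ring
  | 7 => simp [sbU, vg, vh, ndat]; ring
  | 8 => simp [sbU, vh, h8]
  | (n + 9) =>
    rw [show sbU (n + 9) = PE.v (n + 9) from rfl, PE.ev_v, vg_ge _ _ (by omega),
      vh_ge _ _ (by omega)]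

lemma ev_sb_sbU {d : R9} (h8 : d 8 = 1) (P : PE) :
    PE.ev (vg d) (PE.sb sbU P) = PE.ev (vh d) P := by
  rw [PE.ev_sb]
  congr 1
  funext i
  exact ev_sbU h8 i

lemma grTU_ge {k l : ℕ} (h : 6 ≤ k ∨ 6 ≤ l) : grT tabU k l = PE.c 0 := by
  unfold grT
  by_cases hk : 6 ≤ k
  · rw [lk_ge _ _ k (by simpa [tabU] using hk)]
    rfl
  · have hl : 6 ≤ l := h.resolve_left hk
    have hk' : k < 6 := not_le.1 hk
    have h6 : ∀ i < 6, (lk (fun _ => ([] : List PE)) tabU i).length = 6 := by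
      intro i hi
      interval_cases i <;> rfl
    rw [lk_ge _ _ l (by rw [h6 k hk']; exact hl)]

lemma ev_grTU {d : R9} (hd : d 0 ≤ 1) (h8 : d 8 = 1) (k l : ℕ) :
    PE.ev (vg d) (grT tabU k l) = PE.ev (cd (ndat d)) (gr k l) := by
  by_cases h : 6 ≤ k ∨ 6 ≤ l
  · rw [grTU_ge h, gr_ge h, PE.ev_c, PE.ev_c]
  · have hk : k < 6 := by omega
    have hl : l < 6 := by omega
    have h0 : rr (d 0) ^ 2 = cd (ndat d) 0 := rr_sq' hd
    have h9 : cd (ndat d) 8 = 1 := by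
      rw [← vg8]
      simp [vg, ndat, h8]
    interval_cases k <;> interval_cases l <;>
      simp only [grT, gr, tabU, grTab, lk_zero, lk_succ, PE.ev_c, PE.ev_v, PE.ev_sub, PE.ev_pow,
        vg0, vg1, vg2, vg3, vg4, vg5, vg6, vg7, vg8, h0, h9, Int.cast_one]

/-- the multipliers `1`, `rr` -/
def mulU (B1 Br : List BlkG) : List (PE × List BlkG) := [(.c 1, B1), (.v 0, Br)]

/-- the majorant of the difference -/
def bndU (k : Int) (g : Nat) (P : PE) (L : List (PE × List BlkG)) (f : Nat → Nat) : Nat :=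
  Nat.add (PE.abN f (PE.sb sbU P)) (Nat.mul (Int.natAbs k) (rhsS f (Nat.mul g (tabS f tabU)) L))

/-- the majorant -/
lemma ab_le_bndU (k : ℤ) {g : ℕ} (P : PE) {L : List (PE × List BlkG)} (h : allB g L = true)
    (f : ℕ → ℕ) :
    PE.ab f (PE.sub (PE.sb sbU P) (PE.mul (PE.c k) (rhsG tabU L))) ≤ bndU k g P L f := by
  have e1 : bndU k g P L f = PE.abN f (PE.sb sbU P)
    + k.natAbs * rhsS f (g * tabS f tabU) L := rfl
  rw [e1, PE.ab_sub, PE.ab_mul, PE.ab_c, PE.abN_eq, Nat.cast_id]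
  exact Nat.add_le_add_left (Nat.mul_le_mul_left _ (ab_rhsG (tabS_le f tabU) L h)) _

section

variable {E : Type*} [NormedAddCommGroup E] [InnerProductSpace ℝ E]

theorem isGramT_dvU {e x N y w : E} (he : ‖e‖ = 1) (hx : ‖x‖ = 1) (hN : ‖N‖ = 1) (hy : ‖y‖ = 1)
    (hw : ‖w‖ = 1) (hxN : ⟪x, N⟫ = 0) (hyw : ⟪y, w⟫ = 0) (hs : ⟪x, y⟫ < 1) :
    IsGramT tabU (vg (dv x N y w e)) (vec5 ((1 / 2 : ℝ) • (x + y)) ((1 / 2 : ℝ) • (x - y))
      ((1 / 2 : ℝ) • (N + w)) ((1 / 2 : ℝ) • (N - w)) e) := by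
  have h := isGram_dv e hx hN hy hw hxN hyw
  have h8 : dv x N y w e 8 = 1 := by
    have : dv x N y w e 8 = ‖e‖ ^ 2 := real_inner_self_eq_norm_sq e
    rw [this, he, one_pow]
  refine ⟨h.1, fun k l => ?_⟩
  have hd : dv x N y w e 0 ≤ 1 := le_of_lt hs
  rw [ev_grTU hd h8, h.2]

/-- **Nonnegativity from a verified identity**, unit vector. -/
theorem nonneg_of_chkU {P : PE} {B1 Br : List BlkG} {Ms : List ℕ} {g : ℕ} (k : Int)
    (hk : 0 ≤ k) (hg : allB g (mulU B1 Br) = true)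
    (hb : bchkN (bndU k g P (mulU B1 Br)) Ms [] = true)
    (hid : HP.zero (PE.hp (env Ms)
      (PE.sub (PE.sb sbU P) (PE.mul (PE.c k) (rhsG tabU (mulU B1 Br))))) = true)
    (h1 : GoodB B1) (h2 : GoodB Br)
    {e x N y w : E} (he : ‖e‖ = 1) (hx : ‖x‖ = 1) (hN : ‖N‖ = 1) (hy : ‖y‖ = 1)
    (hw : ‖w‖ = 1) (hxN : ⟪x, N⟫ = 0) (hyw : ⟪y, w⟫ = 0) (hs : ⟪x, y⟫ < 1) :
    0 ≤ PE.ev (vh (dv x N y w e)) P := by
  have h8 : dv x N y w e 8 = 1 := by
    have : dv x N y w e 8 = ‖e‖ ^ 2 := real_inner_self_eq_norm_sq e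
    rw [this, he, one_pow]
  rw [← ev_sb_sbU h8, ev_eq_of_chkN (ab_le_bndU k P hg) hb hid _ fun i hi => vg_ge _ _ (by omega),
    PE.ev_mul, PE.ev_c]
  refine mul_nonneg (by exact_mod_cast hk) (rhsG_nonneg _
    (isGramT_dvU he hx hN hy hw hxN hyw hs) ?_ ?_)
  · have h0 : 0 ≤ vg (dv x N y w e) 0 := Real.sqrt_nonneg _
    intro y hy
    simp only [mulU, List.mem_cons, List.not_mem_nil, or_false] at hy
    rcases hy with rfl | rfl
    · simp
    · simpa using h0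
  · intro y hy
    simp only [mulU, List.mem_cons, List.not_mem_nil, or_false] at hy
    rcases hy with rfl | rfl
    · exact h1
    · exact h2

end

end

end Vale.Agent.P224.R2.H979
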