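import Vale.Agent.P224.R2.H979.LawU
import Vale.Agent.P224.PO.LvO
import Vale.Agent.P224.PO.Cst
import Vale.Agent.P224.PO.LawNumO

/-!
The range of the mean normal from a static certificate with a unit vector: value of the rows,
negativity of the law on an interval, and the conclusion on a minimal hypersurface.
-/

namespace Vale.Agent.P224.R2.H979

open MeasureTheory Set Filter Function Module Vale.Agent.P224 Vale.Agent.P224.UE
open Vale.Agent.P224.POS Vale.Agent.P224.PO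
open Vale.Agent.P224.SM2 hiding ker
open scoped Topology RealInnerProductSpace ENNReal ContDiff Manifold

set_option linter.unusedSectionVars false

noncomputable section

/-! ### The value of the rows -/

/-- `m + 1` times the moments, in the variables `ν`, `ρ` -/
def momPU (m a b : Nat) : PE :=
  Bool.rec (motive := fun _ => PE)
    (Bool.rec (motive := fun _ => PE)
      (Bool.rec (motive := fun _ => PE)
        (Bool.rec (motive := fun _ => PE) (PE.c 0) (PE.sub (PE.c 1) (PE.v 1))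
          (and (Nat.beq a 0) (Nat.beq b 2)))
        (PE.mul (PE.c (m + 1)) (PE.v 1)) (and (Nat.beq a 2) (Nat.beq b 0)))
      (PE.mul (PE.c (m + 1)) (PE.v 0)) (and (Nat.beq a 1) (Nat.beq b 0)))
    (PE.c (m + 1)) (and (Nat.beq a 0) (Nat.beq b 0))

lemma ev_momPU (f : ℕ → ℝ) (m a b : ℕ) :
    PE.ev f (momPU m a b) = (m + 1) * momU m (f 0) (f 1) a b := by
  have hm : (m : ℝ) + 1 ≠ 0 := by positivity
  rcases a with _ | _ | _ | a <;> rcases b with _ | _ | _ | b <;>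
    simp [momPU, momU, Nat.beq] <;> field_simp

/-- `m + 1` times the value of a term, in the variables `ν`, `ρ` -/
def tvU (m : Nat) (T : HTerm) : PE :=
  Bool.rec (motive := fun _ => PE)
    (PE.mul (Bool.rec (motive := fun _ => PE) (PE.c (-1)) (PE.c 1) (Nat.beq T.fam.val 0))
      (momPU m T.kn T.kx))
    (PE.c 0) (T.sub m)

lemma ev_tvU (f : ℕ → ℝ) (m : ℕ) (T : HTerm) :
    PE.ev f (tvU m T) = (m + 1) * VU m T (f 0) (f 1) := by
  unfold tvU VU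
  cases h : T.sub m with
  | true => simp
  | false =>
    simp only [Bool.false_eq_true, if_false]
    cases hb : Nat.beq T.fam.val 0 with
    | true =>
      have hf : T.fam = 0 := Fin.ext (Nat.eq_of_beq_eq_true hb)
      rw [if_pos hf, PE.ev_mul, PE.ev_c, ev_momPU]
      push_cast
      ring
    | false =>
      have hf : T.fam ≠ 0 := fun h' => by
        rw [h'] at hb
        exact absurd hb (by decide)
      rw [if_neg hf, PE.ev_mul, PE.ev_c, ev_momPU]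
      push_cast
      ring

/-- `m + 1` times the value of the list -/
def lvU (m : Nat) (l : List (Int × HTerm)) : PE :=
  List.rec (motive := fun _ => PE) (PE.c 0)
    (fun cT _ ih => PE.add (PE.mul (PE.c cT.1) (tvU m cT.2)) ih) l

lemma ev_lvU (f : ℕ → ℝ) (m : ℕ) {D : Int} (hD : D ≠ 0) (l : List (Int × HTerm)) :
    PE.ev f (lvU m l) = (m + 1) * D * hvalU m (rlH D l) (f 0) (f 1) := by
  have hD' : (D : ℝ) ≠ 0 := by exact_mod_cast hD
  induction l with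
  | nil => simp [lvU, hvalU, rlH]
  | cons cT l ih =>
    have e1 : lvU m (cT :: l) = PE.add (PE.mul (PE.c cT.1) (tvU m cT.2)) (lvU m l) := rfl
    rw [e1, PE.ev_add, PE.ev_mul, PE.ev_c, ev_tvU, ih]
    simp only [hvalU, rlH, List.map_cons, List.sum_cons]
    field_simp

/-- the closed form -/
def qvU (a0 a1 a2 : Int) : PE :=
  PE.add (PE.c a0) (PE.add (PE.mul (PE.c a1) (PE.v 0)) (PE.mul (PE.c a2) (PE.v 1)))

/-- The value of a list in closed form, verified by the kernel. -/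
theorem hvalU_eq {m : ℕ} {D : Int} (hD : D ≠ 0) {l : List (Int × HTerm)} {a0 a1 a2 : ℤ}
    (h : chk [] (PE.sub (lvU m l) (qvU a0 a1 a2)) = true) (ν ρ : ℝ) :
    (m + 1) * D * hvalU m (rlH D l) ν ρ = a0 + a1 * ν + a2 * ρ := by
  have h1 := ev_eq_of_chk h (fun i => ([ν, ρ] : List ℝ).getD i 0) (fun i hi =>
    List.getD_eq_default _ _ (by simp at hi ⊢; omega))
  rw [ev_lvU _ m hD] at h1
  have e0 : ([ν, ρ] : List ℝ).getD 0 0 = ν := rfl
  have e1 : ([ν, ρ] : List ℝ).getD 1 0 = ρ := rfl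
  rw [e0, e1] at h1
  rw [h1]
  unfold qvU
  simp only [PE.ev_add, PE.ev_mul, PE.ev_c, PE.ev_v, e0, e1]
  ring

/-! ### Negativity on an interval -/

/-- the Bernstein coefficients of a cubic on an interval are negative -/
def Bern (a b c0 c1 c2 c3 : ℝ) : Prop :=
  c0 + c1 * a + c2 * a ^ 2 + c3 * a ^ 3 < 0 ∧
  3 * c0 + c1 * (2 * a + b) + c2 * (a ^ 2 + 2 * a * b) + 3 * (c3 * (a ^ 2 * b)) < 0 ∧
  3 * c0 + c1 * (a + 2 * b) + c2 * (2 * a * b + b ^ 2) + 3 * (c3 * (a * b ^ 2)) < 0 ∧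
  c0 + c1 * b + c2 * b ^ 2 + c3 * b ^ 3 < 0

lemma Bern.neg {a b c0 c1 c2 c3 x : ℝ} (h : Bern a b c0 c1 c2 c3) (hab : a < b) (h1 : a ≤ x)
    (h2 : x ≤ b) : c0 + c1 * x + c2 * x ^ 2 + c3 * x ^ 3 < 0 := by
  obtain ⟨k0, k1, k2, k3⟩ := h
  have hp : 0 ≤ x - a := by linarith
  have hq : 0 ≤ b - x := by linarith
  have hd : 0 < b - a := by linarith
  have e : (b - a) ^ 3 * (c0 + c1 * x + c2 * x ^ 2 + c3 * x ^ 3)
      = (b - x) ^ 3 * (c0 + c1 * a + c2 * a ^ 2 + c3 * a ^ 3)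
        + (b - x) ^ 2 * (x - a) * (3 * c0 + c1 * (2 * a + b) + c2 * (a ^ 2 + 2 * a * b)
          + 3 * (c3 * (a ^ 2 * b)))
        + (b - x) * (x - a) ^ 2 * (3 * c0 + c1 * (a + 2 * b) + c2 * (2 * a * b + b ^ 2)
          + 3 * (c3 * (a * b ^ 2)))
        + (x - a) ^ 3 * (c0 + c1 * b + c2 * b ^ 2 + c3 * b ^ 3) := by ring
  have hneg : (b - a) ^ 3 * (c0 + c1 * x + c2 * x ^ 2 + c3 * x ^ 3) < 0 := by
    rw [e]
    have t0 : (b - x) ^ 3 * (c0 + c1 * a + c2 * a ^ 2 + c3 * a ^ 3) ≤ 0 :=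
      mul_nonpos_of_nonneg_of_nonpos (by positivity) k0.le
    have t1 := mul_nonpos_of_nonneg_of_nonpos (a := (b - x) ^ 2 * (x - a)) (by positivity) k1.le
    have t2 := mul_nonpos_of_nonneg_of_nonpos (a := (b - x) * (x - a) ^ 2) (by positivity) k2.le
    have t3 : (x - a) ^ 3 * (c0 + c1 * b + c2 * b ^ 2 + c3 * b ^ 3) ≤ 0 :=
      mul_nonpos_of_nonneg_of_nonpos (by positivity) k3.le
    rcases h1.lt_or_eq with h | h
    · have : (x - a) ^ 3 * (c0 + c1 * b + c2 * b ^ 2 + c3 * b ^ 3) < 0 :=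
        mul_neg_of_pos_of_neg (pow_pos (by linarith) 3) k3
      linarith
    · have : (b - x) ^ 3 * (c0 + c1 * a + c2 * a ^ 2 + c3 * a ^ 3) < 0 :=
        mul_neg_of_pos_of_neg (pow_pos (by linarith) 3) k0
      linarith
  by_contra hcon
  rw [not_lt] at hcon
  have := mul_nonneg (pow_pos hd 3).le hcon
  linarith

/-- negativity of the two boundary cubics of a law, for one value of the constant of the flux -/
def Neg2 (n Θ κ a b b0 b2 b15 b4 b7 a0 a1 a2 : ℝ) : Prop :=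
  Bern a b (n * Θ * (b0 + b4) + κ * (a0 + a2)) (n * Θ * (b2 + b7) + κ * a1) (n * Θ * b15) 0 ∧
  Bern a b (n * Θ * b0 + κ * a0) (n * Θ * b2 + κ * a1) (n * Θ * (b15 + b4) + κ * a2) (n * Θ * b7)

lemma Neg2.neg {n Θ κ a b b0 b2 b15 b4 b7 a0 a1 a2 : ℝ}
    (h : Neg2 n Θ κ a b b0 b2 b15 b4 b7 a0 a1 a2) (hab : a < b) (hb : b ≤ 1) (ha : 0 ≤ a)
    {ν ρ : ℝ} (h1 : a ≤ ν) (h2 : ν ≤ b) (h3 : ν ^ 2 ≤ ρ) (h4 : ρ ≤ 1) :
    n * Θ * (b0 + b2 * ν + b15 * ν ^ 2 + (b4 + b7 * ν) * ρ) + κ * (a0 + a1 * ν + a2 * ρ) < 0 := by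
  have k1 := h.1.neg hab h1 h2
  have k2 := h.2.neg hab h1 h2
  set g : ℝ → ℝ := fun ρ => n * Θ * (b0 + b2 * ν + b15 * ν ^ 2 + (b4 + b7 * ν) * ρ)
    + κ * (a0 + a1 * ν + a2 * ρ) with hg
  have g1 : g 1 < 0 := by simp only [hg]; linarith
  have g2 : g (ν ^ 2) < 0 := by
    simp only [hg]
    nlinarith [k2]
  have hν2 : ν ^ 2 ≤ 1 := by nlinarith
  have e : (1 - ν ^ 2) * g ρ = (1 - ρ) * g (ν ^ 2) + (ρ - ν ^ 2) * g 1 := by
    simp only [hg]; ring
  change g ρ < 0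
  rcases hν2.lt_or_eq with hlt | heq
  · by_contra hcon
    rw [not_lt] at hcon
    have t1 := mul_nonneg (sub_nonneg.2 hν2) hcon
    have t2 := mul_nonpos_of_nonneg_of_nonpos (sub_nonneg.2 h4) g2.le
    have t3 := mul_nonpos_of_nonneg_of_nonpos (sub_nonneg.2 h3) g1.le
    have t4 : (1 - ρ) * g (ν ^ 2) + (ρ - ν ^ 2) * g 1 = 0 := by linarith
    have t5 : (1 - ρ) * g (ν ^ 2) = 0 := by linarith
    have t6 : (ρ - ν ^ 2) * g 1 = 0 := by linarith
    rcases mul_eq_zero.1 t5 with h5 | h5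
    · rcases mul_eq_zero.1 t6 with h6 | h6
      · linarith
      · linarith
    · linarith
  · have : ρ = 1 := by linarith
    rw [this]; exact g1

/-- negativity of a law for a constant of the flux in an interval, and positivity of the volume
part -/
structure LawNeg (n Θ κ κ' a b b0 b2 b15 b4 b7 a0 a1 a2 : ℝ) : Prop where
  lo : Neg2 n Θ κ a b b0 b2 b15 b4 b7 a0 a1 a2
  hi : Neg2 n Θ κ' a b b0 b2 b15 b4 b7 a0 a1 a2
  pos : Neg2 1 1 0 a b (-b0) (-b2) (-b15) (-b4) (-b7) 0 0 0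

lemma LawNeg.neg {n Θ κ κ' a b b0 b2 b15 b4 b7 a0 a1 a2 : ℝ}
    (h : LawNeg n Θ κ κ' a b b0 b2 b15 b4 b7 a0 a1 a2) (hn : 0 ≤ n) (hab : a < b) (hb : b ≤ 1)
    (ha : 0 ≤ a) {k θ ν ρ : ℝ} (hk1 : κ ≤ k) (hk2 : k ≤ κ') (hθ : θ ≤ Θ) (h1 : a ≤ ν)
    (h2 : ν ≤ b) (h3 : ν ^ 2 ≤ ρ) (h4 : ρ ≤ 1) :
    n * θ * (b0 + b2 * ν + b15 * ν ^ 2 + (b4 + b7 * ν) * ρ) + k * (a0 + a1 * ν + a2 * ρ) < 0 := by
  have k1 := h.lo.neg hab hb ha h1 h2 h3 h4
  have k2 := h.hi.neg hab hb ha h1 h2 h3 h4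
  have k3 := h.pos.neg hab hb ha h1 h2 h3 h4
  set B := b0 + b2 * ν + b15 * ν ^ 2 + (b4 + b7 * ν) * ρ with hB
  set H := a0 + a1 * ν + a2 * ρ with hH
  have hB0 : 0 ≤ B := by
    rw [hB]; nlinarith
  have hBθ : n * θ * B ≤ n * Θ * B := by
    have := mul_le_mul_of_nonneg_right (mul_le_mul_of_nonneg_left hθ hn) hB0
    exact this
  have hkH : k * H ≤ max (κ * H) (κ' * H) := by
    rcases le_total 0 H with h0 | h0
    · exact (mul_le_mul_of_nonneg_right hk2 h0).trans (le_max_right _ _)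
    · exact (mul_le_mul_of_nonpos_right hk1 h0).trans (le_max_left _ _)
  rcases max_cases (κ * H) (κ' * H) with ⟨h5, _⟩ | ⟨h5, _⟩ <;> rw [h5] at hkH <;> linarith

/-! ### The conclusion -/

section

variable {V W M : Type*} [NormedAddCommGroup V] [InnerProductSpace ℝ V] [FiniteDimensional ℝ V]
  [NormedAddCommGroup W] [InnerProductSpace ℝ W] [FiniteDimensional ℝ W]
  [TopologicalSpace M] [ChartedSpace V M]
  [MeasurableSpace V] [BorelSpace V] [MeasurableSpace M] [BorelSpace M]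
  [IsManifold 𝓘(ℝ, V) ∞ M] [CompactSpace M] [T2Space M] [ConnectedSpace M]
  [MeasurableSpace W] [BorelSpace W]

/-- **The range of the mean normal from a certificate.** -/
theorem far_unit {m : ℕ} (hm : 2 ≤ m) (hV : finrank ℝ V = m)
    (hW : finrank ℝ W = finrank ℝ V + 2)
    {F : M → W} (hF : SphImm V F) (hmin : ∀ x n, IsUnitNormal V F x n → meanCurv V F x n = 0)
    {N : M → W} (hNs : ContMDiff 𝓘(ℝ, V) 𝓘(ℝ, W) ∞ N) (hN : ∀ x, IsUnitNormal V F x (N x))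
    (hinj : Injective F) {e : W}
    (he : (volM V F).real univ • e = ∫ x, N x ∂(volM V F)) (hA : 0 < (volM V F).real univ)
    {K : ℕ} {D : ℤ} (hD : 0 < D) (b0 b1 b2 b4 b5 b7 : ℤ) {rows : List (Int × HTerm)}
    (hok : (rows.all fun x => x.2.ok m) = true)
    (hK : (rows.all fun x => decide (0 ≤ (K : ℤ) + x.2.e - 2)) = true)
    (hpos : ∀ v x N y w : W, ‖v‖ = 1 → ‖x‖ = 1 → ‖N‖ = 1 → ‖y‖ = 1 → ‖w‖ = 1 → ⟪x, N⟫ = 0 →
      ⟪y, w⟫ = 0 → ⟪x, y⟫ < 1 →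
      0 ≤ PE.ev (vh (dv x N y w v)) (lhsH m K b0 b1 b2 0 b4 b5 0 b7 0 rows))
    {a0 a1 a2 : ℤ} (hval : chk [] (PE.sub (lvU m rows) (qvU a0 a1 a2)) = true)
    {Θ κ κ' a b : ℝ} (hκ : κ ≤ KH m) (hκ' : KH m ≤ κ') (ha : 0 < a) (hab : a < b) (hb : b ≤ 1)
    (hneg : LawNeg (m + 1) Θ κ κ' a b b0 b2 (b1 + b5) b4 b7 a0 a1 a2)
    (hhi : (volM V F).real univ ≤ Θ * sphereVol m) (hlt : ‖e‖ ≤ b) : ‖e‖ < a := by
  by_contra hcon
  rw [not_lt] at hcon
  have hfin : IsFiniteMeasure (volM V F) := isFiniteMeasure_volM hF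
  have hDr : (0 : ℝ) < D := by exact_mod_cast hD
  obtain ⟨B, hE⟩ := embD_of_inj (by omega) hW hF hmin hNs hN hinj
  rw [hV] at hE
  have he0 : 0 < ‖e‖ := lt_of_lt_of_le ha hcon
  have hS0 : 0 < sphereVol m := sphereVol_pos' _
  have : Nonempty M := by
    by_contra hne
    rw [not_nonempty_iff] at hne
    have : (volM V F).real univ = 0 := by
      simp [measureReal_def, Measure.eq_zero_of_isEmpty]
    linarith
  have hv : ‖(‖e‖⁻¹ • e : W)‖ = 1 := by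
    rw [norm_smul, norm_inv, norm_norm, inv_mul_cancel₀ he0.ne']
  have hve : ‖e‖ • (‖e‖⁻¹ • e : W) = e := by
    rw [smul_smul, mul_inv_cancel₀ he0.ne', one_smul]
  have hok' : ∀ cT ∈ rlH D rows, cT.2.ok m = true := by
    intro cT hcT
    unfold rlH at hcT
    obtain ⟨x, hx, rfl⟩ := List.mem_map.1 hcT
    exact List.all_eq_true.1 hok x hx
  have hK' : ∀ x ∈ rows, 0 ≤ (K : ℤ) + x.2.e - 2 := fun x hx =>
    of_decide_eq_true (List.all_eq_true.1 hK x hx)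
  obtain ⟨ρ, h1, h2, h3⟩ := law_U hE hm hv he0 (by rw [hve]; exact he) hA hok'
    (fun x N y w hx hN hy hw hxN hyw hs =>
      nonneg_of_lhsH (d := dv x N y w (‖e‖⁻¹ • e)) hs m hD b0 b1 b2 0 b4 b5 0 b7 0 hK'
        (hpos _ x N y w hv hx hN hy hw hxN hyw hs))
  have h4 := hvalU_eq hD.ne' hval ‖e‖ ρ
  have h5 := hneg.neg (by positivity) hab hb ha.le (k := KH m)
    (θ := (volM V F).real univ / sphereVol m) hκ hκ' (by rw [div_le_iff₀ hS0]; exact hhi)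
    hcon hlt h1 h2
  have hm1 : (0 : ℝ) < m + 1 := by positivity
  have h6 : 0 ≤ (((m : ℝ) + 1) * D / sphereVol m) * ((volM V F).real univ * ((b0 : ℝ) / D
      + ((0 : ℤ) : ℝ) / D + b2 / D * ‖e‖ + b1 / D * ‖e‖ ^ 2 + (b4 / D + b7 / D * ‖e‖) * ρ
      + (b5 / D + ((0 : ℤ) : ℝ) / D) * ‖e‖ ^ 2 + ((0 : ℤ) : ℝ) / D * ((1 - ρ) / (m + 1)))
        + KH m * sphereVol m * hvalU m (rlH D rows) ‖e‖ ρ) := mul_nonneg (by positivity) h3
  have h7 : (((m : ℝ) + 1) * D / sphereVol m) * ((volM V F).real univ * ((b0 : ℝ) / D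
      + ((0 : ℤ) : ℝ) / D + b2 / D * ‖e‖ + b1 / D * ‖e‖ ^ 2 + (b4 / D + b7 / D * ‖e‖) * ρ
      + (b5 / D + ((0 : ℤ) : ℝ) / D) * ‖e‖ ^ 2 + ((0 : ℤ) : ℝ) / D * ((1 - ρ) / (m + 1)))
        + KH m * sphereVol m * hvalU m (rlH D rows) ‖e‖ ρ)
      = (m + 1) * ((volM V F).real univ / sphereVol m) * (b0 + b2 * ‖e‖ + (b1 + b5) * ‖e‖ ^ 2
        + (b4 + b7 * ‖e‖) * ρ) + KH m * (((m : ℝ) + 1) * D * hvalU m (rlH D rows) ‖e‖ ρ) := by
    push_cast
    field_simp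
    ring
  rw [h7, h4] at h6
  linarith

end

end

end Vale.Agent.P224.R2.H979
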